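/-
helper65 -- S0076 log-spread squad (coordinator helper68), leaf BW (second copy): the big-world
weighted count  `∑_{U good} ϖ^|U| A_T(U) ≤ inj(Z,B)^T`.

Induction on `T`.  For a good `U` (inside a translate `g0 • B`) group the `g` by the set
`S = {e ∈ Z | g • e ∈ U}` of old slots: `#{g | oldSlots = S} ≤ inj(S, g0 • B) = inj(S, B)`, then (KB)
and the binomial theorem.
-/
import Crest.Agent.Helper68.S0076.Defs

set_option autoImplicit false
set_option linter.unusedSectionVars false

namespace Crest.Agent.Helper65.S0076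

open Finset Crest.Agent.Helper68.S0076
open scoped Pointwise

variable {G : Type*} {X : Type*} [Group G] [Fintype G] [Fintype X] [DecidableEq X] [MulAction G X]

/-- private copy of leaf P -/
theorem sum_mul_push' (Z : Finset X) (wt : Finset X → G → ℝ) (f h : Finset X → ℝ) :
    ∑ U' : Finset X, h U' * push Z wt f U'
      = ∑ U : Finset X, ∑ g : G, h (U ∪ g • Z) * (f U * wt U g) := by
  unfold push
  simp_rw [Finset.mul_sum]
  rw [Finset.sum_comm]
  refine Finset.sum_congr rfl fun U _ => ?_
  rw [Finset.sum_comm]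
  refine Finset.sum_congr rfl fun g _ => ?_
  simp [mul_ite]

/-- private copy of leaf N (`nu_mem`) -/
theorem nu_mem' (ω : ℝ) (E m u : ℕ) (hω : 0 ≤ ω) (hωE : ω * (E : ℝ) ≤ (m : ℝ)) :
    0 ≤ nu ω E m u ∧ nu ω E m u ≤ 1 := by
  unfold nu
  split_ifs with h
  · exact ⟨zero_le_one, le_refl _⟩
  · have hm : (0 : ℝ) ≤ m := Nat.cast_nonneg m
    have hEu : ((E - u : ℕ) : ℝ) ≤ (E : ℝ) := by exact_mod_cast Nat.sub_le E u
    have h0 : (0 : ℝ) ≤ ((E - u : ℕ) : ℝ) := Nat.cast_nonneg _
    constructor
    · exact div_nonneg (mul_nonneg hω h0) hm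
    · rcases eq_or_lt_of_le hm with hm0 | hmpos
      · rw [← hm0]; simp
      · rw [div_le_one hmpos]
        calc ω * ((E - u : ℕ) : ℝ) ≤ ω * (E : ℝ) := mul_le_mul_of_nonneg_left hEu hω
          _ ≤ m := hωE

/-- private copy of leaf N (`qw_nonneg`) -/
theorem qw_nonneg' (ω : ℝ) (E : ℕ) (Z U : Finset X) (g : G) (hω : 0 ≤ ω)
    (hωE : ω * (E : ℝ) ≤ (Z.card : ℝ)) : 0 ≤ qw ω E Z U g := by
  obtain ⟨h0, h1⟩ := nu_mem' ω E Z.card U.card hω hωE
  unfold qw
  exact mul_nonneg (pow_nonneg h0 _) (pow_nonneg (by linarith) _)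

/-- private copy of leaf N (`Aseq_nonneg`) -/
theorem Aseq_nonneg' (Z : Finset X) (wt : Finset X → G → ℝ) (hwt : ∀ U g, 0 ≤ wt U g)
    (T : ℕ) (U : Finset X) : 0 ≤ Aseq Z wt T U := by
  induction T generalizing U with
  | zero =>
    simp only [Aseq]
    split_ifs <;> norm_num
  | succ T ih =>
    simp only [Aseq, push]
    refine Finset.sum_nonneg fun U₀ _ => Finset.sum_nonneg fun g _ => ?_
    split_ifs
    · exact mul_nonneg (ih U₀) (hwt U₀ g)
    · exact le_refl _

/-- the slots of `Z` sent into `U` by `g`. -/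
def oldSlots (Z U : Finset X) (g : G) : Finset X := Z.filter (fun e => g • e ∈ U)

theorem knew_add_oldSlots (Z U : Finset X) (g : G) :
    knew Z U g + (oldSlots Z U g).card = Z.card := by
  unfold knew oldSlots
  have h1 : (g • Z) \ U = (g • Z).filter (fun x => x ∉ U) := by
    ext x; simp [Finset.mem_sdiff]
  have h2 : ((g • Z).filter (fun x => x ∈ U)).card = (Z.filter (fun e => g • e ∈ U)).card := by
    have : g • Z = Z.image (fun e => g • e) := rfl
    rw [this, Finset.filter_image]
    exact Finset.card_image_of_injective _ (MulAction.injective g)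
  rw [h1, ← h2, add_comm, Finset.card_filter_add_card_filter_not]
  exact Finset.card_smul_finset g Z

theorem card_union_knew (Z U : Finset X) (g : G) : (U ∪ g • Z).card = U.card + knew Z U g := by
  unfold knew
  rw [← Finset.card_union_of_disjoint Finset.disjoint_sdiff, Finset.union_sdiff_self_eq_union]

/-- The one-step inequality at a good state `U`. -/
theorem one_step (B Z U : Finset X) (ϖ ω : ℝ) (hϖ : 0 < ϖ) (hω : 0 ≤ ω)
    (hωE : ω * (B.card : ℝ) ≤ (Z.card : ℝ))
    (hKB : ∀ S ⊆ Z, (inj G S B : ℝ) * ϖ ^ (Z.card - S.card) ≤ (inj G Z B : ℝ))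
    (hU : Good G B U) :
    ∑ g : G, ϖ ^ knew Z U g * qw ω B.card Z U g ≤ (inj G Z B : ℝ) := by
  classical
  obtain ⟨g0, hg0⟩ := hU
  obtain ⟨hν0, hν1⟩ := nu_mem' ω B.card Z.card U.card hω hωE
  set ν := nu ω B.card Z.card U.card with hν
  have h1ν : 0 ≤ 1 - ν := by linarith
  have hterm : ∀ g : G, ϖ ^ knew Z U g * qw ω B.card Z U g
      = (ϖ * ν) ^ (Z.card - (oldSlots Z U g).card) * (1 - ν) ^ (oldSlots Z U g).card := by
    intro g
    have hk := knew_add_oldSlots Z U g
    have hk1 : knew Z U g = Z.card - (oldSlots Z U g).card := by omega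
    have hk2 : Z.card - knew Z U g = (oldSlots Z U g).card := by omega
    unfold qw
    rw [← hν, hk2, hk1, mul_pow]
    ring
  simp_rw [hterm]
  have hmaps : ∀ g ∈ (Finset.univ : Finset G), oldSlots Z U g ∈ Z.powerset := by
    intro g _
    rw [Finset.mem_powerset]
    exact Finset.filter_subset _ _
  rw [← Finset.sum_fiberwise_of_maps_to hmaps]
  calc ∑ S ∈ Z.powerset, ∑ g ∈ Finset.univ.filter (fun g : G => oldSlots Z U g = S),
          (ϖ * ν) ^ (Z.card - (oldSlots Z U g).card) * (1 - ν) ^ (oldSlots Z U g).card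
      ≤ ∑ S ∈ Z.powerset, (inj G Z B : ℝ) * ((1 - ν) ^ S.card * ν ^ (Z.card - S.card)) := by
        refine Finset.sum_le_sum fun S hS => ?_
        rw [Finset.mem_powerset] at hS
        have hcard : ((Finset.univ.filter (fun g : G => oldSlots Z U g = S)).card : ℝ)
            ≤ (inj G S B : ℝ) := by
          have : (Finset.univ.filter (fun g : G => oldSlots Z U g = S)).card ≤ inj G S B := by
            unfold inj
            apply Finset.card_le_card_of_injOn (fun g => g0⁻¹ * g)
            · intro g hg
              have hg' : oldSlots Z U g = S := by simpa using hg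
              simp only [Finset.coe_filter, Finset.mem_univ, true_and, Set.mem_ofPred_eq]
              intro x hx
              rw [mul_smul] at hx
              obtain ⟨y, hy, rfl⟩ := Finset.mem_smul_finset.1 hx
              obtain ⟨e, he, rfl⟩ := Finset.mem_smul_finset.1 hy
              have heU : g • e ∈ U := by
                rw [← hg'] at he
                exact (Finset.mem_filter.1 he).2
              obtain ⟨b, hb, hbe⟩ := Finset.mem_smul_finset.1 (hg0 heU)
              have hb' : g0⁻¹ • g • e = b := by rw [← hbe]; simp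
              rw [hb']; exact hb
            · intro a _ b _ hab
              exact mul_left_cancel hab
          exact_mod_cast this
        calc ∑ g ∈ Finset.univ.filter (fun g : G => oldSlots Z U g = S),
              (ϖ * ν) ^ (Z.card - (oldSlots Z U g).card) * (1 - ν) ^ (oldSlots Z U g).card
            = ∑ g ∈ Finset.univ.filter (fun g : G => oldSlots Z U g = S),
                (ϖ * ν) ^ (Z.card - S.card) * (1 - ν) ^ S.card := by
              refine Finset.sum_congr rfl fun g hg => ?_
              rw [(Finset.mem_filter.1 hg).2]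
          _ = ((Finset.univ.filter (fun g : G => oldSlots Z U g = S)).card : ℝ)
                * ((ϖ * ν) ^ (Z.card - S.card) * (1 - ν) ^ S.card) := by
              rw [Finset.sum_const, nsmul_eq_mul]
          _ ≤ (inj G S B : ℝ) * ((ϖ * ν) ^ (Z.card - S.card) * (1 - ν) ^ S.card) := by
              apply mul_le_mul_of_nonneg_right hcard
              exact mul_nonneg (pow_nonneg (mul_nonneg hϖ.le hν0) _) (pow_nonneg h1ν _)
          _ = ((inj G S B : ℝ) * ϖ ^ (Z.card - S.card))
                * ((1 - ν) ^ S.card * ν ^ (Z.card - S.card)) := by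
              rw [mul_pow]; ring
          _ ≤ (inj G Z B : ℝ) * ((1 - ν) ^ S.card * ν ^ (Z.card - S.card)) := by
              apply mul_le_mul_of_nonneg_right (hKB S hS)
              exact mul_nonneg (pow_nonneg h1ν _) (pow_nonneg hν0 _)
    _ = (inj G Z B : ℝ) * ((1 - ν) + ν) ^ Z.card := by
        rw [← Finset.mul_sum, Finset.sum_pow_mul_eq_add_pow]
    _ = (inj G Z B : ℝ) := by simp

/-- Leaf BW (exact Blueprint signature). -/
theorem bigworld (B Z : Finset X) (ϖ ω : ℝ) (hϖ : 0 < ϖ) (hω : 0 ≤ ω)
    (hωE : ω * (B.card : ℝ) ≤ (Z.card : ℝ))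
    (hKB : ∀ S ⊆ Z, (inj G S B : ℝ) * ϖ ^ (Z.card - S.card) ≤ (inj G Z B : ℝ)) (T : ℕ) :
    ∑ U ∈ goodSet G B, ϖ ^ U.card * Aseq Z (qw (G := G) ω B.card Z) T U
      ≤ (inj G Z B : ℝ) ^ T := by
  classical
  induction T with
  | zero =>
    have hempty : (∅ : Finset X) ∈ goodSet G B := by
      rw [mem_goodSet]; exact ⟨1, Finset.empty_subset _⟩
    have h1 : ∑ U ∈ goodSet G B, ϖ ^ U.card * Aseq Z (qw (G := G) ω B.card Z) 0 U = 1 := by
      rw [Finset.sum_eq_single_of_mem ∅ hempty]
      · simp [Aseq]
      · intro U _ hU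
        simp [Aseq, hU]
    rw [h1]; simp
  | succ T ih =>
    set h : Finset X → ℝ := fun U => if U ∈ goodSet G B then ϖ ^ U.card else 0 with hh
    have hA : ∀ U, 0 ≤ Aseq Z (qw (G := G) ω B.card Z) T U :=
      fun U => Aseq_nonneg' Z _ (fun U g => qw_nonneg' ω B.card Z U g hω hωE) T U
    have e1 : ∑ U ∈ goodSet G B, ϖ ^ U.card * Aseq Z (qw (G := G) ω B.card Z) (T + 1) U
        = ∑ U : Finset X, h U * push Z (qw (G := G) ω B.card Z)
            (Aseq Z (qw (G := G) ω B.card Z) T) U := by
      have hrew : ∀ U : Finset X, h U * push Z (qw (G := G) ω B.card Z)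
            (Aseq Z (qw (G := G) ω B.card Z) T) U
          = if U ∈ goodSet G B then ϖ ^ U.card * Aseq Z (qw (G := G) ω B.card Z) (T + 1) U
            else 0 := by
        intro U
        simp only [hh, Aseq]
        split_ifs <;> simp
      simp_rw [hrew]
      rw [Finset.sum_ite_mem, Finset.univ_inter]
    rw [e1, sum_mul_push']
    have e2 : ∀ U : Finset X,
        ∑ g : G, h (U ∪ g • Z) * (Aseq Z (qw (G := G) ω B.card Z) T U * qw ω B.card Z U g)
        ≤ if U ∈ goodSet G B then
            (inj G Z B : ℝ) * (ϖ ^ U.card * Aseq Z (qw (G := G) ω B.card Z) T U) else 0 := by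
      intro U
      split_ifs with hU
      · have hstep := one_step B Z U ϖ ω hϖ hω hωE hKB ((mem_goodSet G B U).1 hU)
        calc ∑ g : G, h (U ∪ g • Z) * (Aseq Z (qw (G := G) ω B.card Z) T U * qw ω B.card Z U g)
            ≤ ∑ g : G, ϖ ^ (U.card + knew Z U g)
                * (Aseq Z (qw (G := G) ω B.card Z) T U * qw ω B.card Z U g) := by
              refine Finset.sum_le_sum fun g _ => ?_
              apply mul_le_mul_of_nonneg_right _
                (mul_nonneg (hA U) (qw_nonneg' ω B.card Z U g hω hωE))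
              simp only [hh]
              split_ifs
              · rw [card_union_knew]
              · positivity
          _ = (ϖ ^ U.card * Aseq Z (qw (G := G) ω B.card Z) T U)
                * ∑ g : G, ϖ ^ knew Z U g * qw ω B.card Z U g := by
              rw [Finset.mul_sum]
              refine Finset.sum_congr rfl fun g _ => ?_
              rw [pow_add]; ring
          _ ≤ (ϖ ^ U.card * Aseq Z (qw (G := G) ω B.card Z) T U) * (inj G Z B : ℝ) := by
              apply mul_le_mul_of_nonneg_left hstep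
              exact mul_nonneg (pow_nonneg hϖ.le _) (hA U)
          _ = _ := by ring
      · apply le_of_eq
        apply Finset.sum_eq_zero
        intro g _
        have hng : U ∪ g • Z ∉ goodSet G B := by
          intro hgood
          apply hU
          rw [mem_goodSet] at hgood ⊢
          obtain ⟨g1, hg1⟩ := hgood
          exact ⟨g1, Finset.subset_union_left.trans hg1⟩
        simp [hh, hng]
    calc ∑ U : Finset X, ∑ g : G,
          h (U ∪ g • Z) * (Aseq Z (qw (G := G) ω B.card Z) T U * qw ω B.card Z U g)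
        ≤ ∑ U : Finset X, if U ∈ goodSet G B then
            (inj G Z B : ℝ) * (ϖ ^ U.card * Aseq Z (qw (G := G) ω B.card Z) T U) else 0 :=
          Finset.sum_le_sum fun U _ => e2 U
      _ = (inj G Z B : ℝ)
            * ∑ U ∈ goodSet G B, ϖ ^ U.card * Aseq Z (qw (G := G) ω B.card Z) T U := by
          rw [Finset.sum_ite_mem, Finset.univ_inter, Finset.mul_sum]
      _ ≤ (inj G Z B : ℝ) * (inj G Z B : ℝ) ^ T :=
          mul_le_mul_of_nonneg_left ih (Nat.cast_nonneg _)
      _ = (inj G Z B : ℝ) ^ (T + 1) := by ring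

end Crest.Agent.Helper65.S0076
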