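/-
helper65 -- S0076 log-spread squad (coordinator helper68), leaf GL1 (second copy):
embeddings versus permutations.  `Perm (Fin n)` acts transitively on the embeddings `W ↪ Fin n`
by post-composition, all fibres of `σ ↦ f₀.trans σ` have the same size.
-/
import Crest.Agent.Helper68.S0076.GraphDefs

set_option autoImplicit false
set_option linter.unusedSectionVars false

namespace Crest.Agent.Helper65.S0076

open Finset Crest.Agent.Helper68.S0076 Crest.Agent.Helper68 Crest.CombinatoricsR.RandomGraph
open scoped Pointwise

variable {n : ℕ} {W : Type} [Fintype W] [DecidableEq W]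

theorem slotImage_trans (H : SimpleGraph W) [DecidableRel H.Adj] (f : W ↪ Fin n)
    (σ : Equiv.Perm (Fin n)) :
    PP.slotImage H (f.trans σ.toEmbedding) = σ • PP.slotImage H f := by
  unfold PP.slotImage
  show _ = Finset.image (fun z => σ • z) _
  rw [Finset.image_image]
  refine Finset.image_congr fun e _ => ?_
  apply Subtype.ext
  simp only [Function.comp_apply, slot_smul_val]
  rw [Sym2.map_map]
  rfl

/-- every embedding is `f₀` followed by a permutation -/
theorem exists_perm_trans (f₀ f : W ↪ Fin n) :
    ∃ σ : Equiv.Perm (Fin n), f₀.trans σ.toEmbedding = f := by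
  classical
  let e : {x // x ∈ Set.range f₀} ≃ {x // x ∈ Set.range f} :=
    (Equiv.ofInjective f₀ f₀.injective).symm.trans (Equiv.ofInjective f f.injective)
  refine ⟨e.extendSubtype, ?_⟩
  apply Function.Embedding.ext
  intro x
  simp only [Function.Embedding.trans_apply, Equiv.coe_toEmbedding]
  rw [Equiv.extendSubtype_apply_of_mem e (f₀ x) ⟨x, rfl⟩]
  simp [e, Equiv.ofInjective_symm_apply]

theorem card_fiber (f₀ f : W ↪ Fin n) :
    (Finset.univ.filter (fun σ : Equiv.Perm (Fin n) => f₀.trans σ.toEmbedding = f)).card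
      = (Finset.univ.filter
          (fun σ : Equiv.Perm (Fin n) => f₀.trans σ.toEmbedding = f₀)).card := by
  classical
  obtain ⟨τ, hτ⟩ := exists_perm_trans f₀ f
  have hτx : ∀ x, τ (f₀ x) = f x := fun x => by
    have := congrArg (fun g : W ↪ Fin n => g x) hτ
    simpa using this
  apply Finset.card_bij' (fun σ _ => τ⁻¹ * σ) (fun σ _ => τ * σ)
  · intro σ hσ
    simp only [Finset.mem_filter, Finset.mem_univ, true_and] at hσ ⊢
    apply Function.Embedding.ext
    intro x
    have h1 := congrArg (fun g : W ↪ Fin n => g x) hσ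
    simp only [Function.Embedding.trans_apply, Equiv.coe_toEmbedding] at h1 ⊢
    rw [Equiv.Perm.mul_apply, h1, ← hτx x]
    simp
  · intro σ hσ
    simp only [Finset.mem_filter, Finset.mem_univ, true_and] at hσ ⊢
    apply Function.Embedding.ext
    intro x
    have h1 := congrArg (fun g : W ↪ Fin n => g x) hσ
    simp only [Function.Embedding.trans_apply, Equiv.coe_toEmbedding] at h1 ⊢
    rw [Equiv.Perm.mul_apply, h1, hτx x]
  · intro σ _; simp
  · intro σ _; simp

theorem card_filter_perm (f₀ : W ↪ Fin n) (P : (W ↪ Fin n) → Prop) [DecidablePred P] :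
    (Finset.univ.filter (fun σ : Equiv.Perm (Fin n) => P (f₀.trans σ.toEmbedding))).card
      = (Finset.univ.filter P).card
        * (Finset.univ.filter
            (fun σ : Equiv.Perm (Fin n) => f₀.trans σ.toEmbedding = f₀)).card := by
  classical
  rw [Finset.card_eq_sum_card_fiberwise
    (f := fun σ : Equiv.Perm (Fin n) => f₀.trans σ.toEmbedding)
    (t := Finset.univ.filter P) (fun σ hσ => by simpa using hσ)]
  rw [← smul_eq_mul, ← Finset.sum_const]
  refine Finset.sum_congr rfl fun f hf => ?_
  rw [← card_fiber f₀ f]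
  congr 1
  ext σ
  simp only [Finset.mem_filter, Finset.mem_univ, true_and]
  constructor
  · rintro ⟨_, h⟩; exact h
  · intro h; exact ⟨by rw [h]; exact (Finset.mem_filter.1 hf).2, h⟩

/-- Leaf GL1 (exact Blueprint signature). -/
theorem card_perm_embed (H : SimpleGraph W) [DecidableRel H.Adj] (f₀ : W ↪ Fin n)
    (T : Finset (EdgeSlot n)) :
    (Finset.univ.filter (fun σ : Equiv.Perm (Fin n) => T ⊆ σ • PP.slotImage H f₀)).card
        * Fintype.card (W ↪ Fin n)
      = (Finset.univ.filter (fun f : W ↪ Fin n => T ⊆ PP.slotImage H f)).card * n.factorial := by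
  classical
  set k := (Finset.univ.filter
    (fun σ : Equiv.Perm (Fin n) => f₀.trans σ.toEmbedding = f₀)).card with hk
  have h1 : (Finset.univ.filter (fun σ : Equiv.Perm (Fin n) => T ⊆ σ • PP.slotImage H f₀)).card
      = (Finset.univ.filter (fun f : W ↪ Fin n => T ⊆ PP.slotImage H f)).card * k := by
    rw [hk, ← card_filter_perm f₀ (fun f : W ↪ Fin n => T ⊆ PP.slotImage H f)]
    congr 1
    ext σ
    simp only [Finset.mem_filter, Finset.mem_univ, true_and]
    rw [slotImage_trans]
  have h2 : n.factorial = Fintype.card (W ↪ Fin n) * k := by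
    have h3 := card_filter_perm f₀ (fun _ : W ↪ Fin n => True)
    simp only [Finset.filter_true, Finset.card_univ] at h3
    rw [Fintype.card_perm, Fintype.card_fin] at h3
    rw [hk]; exact h3
  rw [h1, h2]; ring

end Crest.Agent.Helper65.S0076
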