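import Mathlib
import Crest.Agent.Helper77.S0076.ClosureMaps

/-!
# Lower bound for the number of edges of the closure pattern (helper65; conditional, row 55)

Backup copy of leaf (M2) of helper77's closure formalisation (`notes/s0076_helper68_closure.md`):
the closure pattern `patE T E' m` has at least `|T| + |E'| + ∑_N m N * |N|` edges.

Nothing here proves a spread bound; the file is imported by nothing.
-/

set_option autoImplicit false
set_option linter.unusedSectionVars false
set_option linter.unusedVariables false

namespace Crest.Agent.Helper65.S0076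

open Finset Crest.CombinatoricsR.RandomGraph Crest.Agent.Helper52.PP
open Crest.Agent.Helper77.S0076
open scoped Classical

variable {n : ℕ}

/-- The closure pattern has at least `|T| + |E'| + ∑_N m N * |N|` edges. -/
theorem card_patE_ge (T E' : Finset (EdgeSlot n)) (m : Finset (Fin n) → ℕ)
    (hdisj : Disjoint T E') (hE' : ∀ t ∈ E', ∀ x ∈ t.1, x ∈ vset T)
    (hm : ∀ N, m N ≠ 0 → N ⊆ vset T) :
    T.card + E'.card + ∑ N : Finset (Fin n), m N * N.card ≤ (patE T E' m).card := by
  -- the two parts of `patE`
  set F : Finset (Sym2 {x : Fin n // x ∈ vset T}) :=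
    (Finset.univ : Finset (Sym2 {x : Fin n // x ∈ vset T})).filter
      (fun z => Sym2.map Subtype.val z ∈ (T ∪ E').image Subtype.val) with hF
  set A : Finset (Sym2 (PV T m)) := F.image (Sym2.map Sum.inl) with hA
  set g : (Σ N : Finset (Fin n), Fin (m N)) → Finset (Sym2 (PV T m)) :=
    fun q => ((Finset.univ : Finset {x : Fin n // x ∈ vset T}).filter
        (fun x => x.1 ∈ q.1)).image (fun x => s(Sum.inl x, Sum.inr q)) with hg
  set B : Finset (Sym2 (PV T m)) :=
    (Finset.univ : Finset (Σ N : Finset (Fin n), Fin (m N))).biUnion g with hB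
  have hpat : patE T E' m = A ∪ B := rfl
  -- disjointness of the two parts
  have hAB : Disjoint A B := by
    rw [Finset.disjoint_left]
    intro z hzA hzB
    rw [hA, Finset.mem_image] at hzA
    obtain ⟨z0, -, rfl⟩ := hzA
    rw [hB, Finset.mem_biUnion] at hzB
    obtain ⟨q, -, hq⟩ := hzB
    rw [hg, Finset.mem_image] at hq
    obtain ⟨x, -, hx⟩ := hq
    have hmem : (Sum.inr q : PV T m) ∈ Sym2.map Sum.inl z0 := by
      rw [← hx]
      exact Sym2.mem_mk_right _ _
    rw [Sym2.mem_map] at hmem
    obtain ⟨a, -, ha⟩ := hmem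
    exact Sum.inl_ne_inr ha
  -- first part
  have hvT : ∀ t ∈ T ∪ E', ∀ x ∈ t.1, x ∈ vset T := by
    intro t ht x hx
    rcases Finset.mem_union.1 ht with h | h
    · exact (mem_vset T x).2 ⟨t, h, hx⟩
    · exact hE' t h x hx
  have hFcard : T.card + E'.card ≤ F.card := by
    have h1 : (T ∪ E').card = T.card + E'.card := Finset.card_union_of_disjoint hdisj
    have h2 : ((T ∪ E').image Subtype.val).card = (T ∪ E').card :=
      Finset.card_image_of_injective _ Subtype.val_injective
    have h3 : (T ∪ E').image Subtype.val ⊆ F.image (Sym2.map Subtype.val) := by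
      intro z hz
      rw [Finset.mem_image] at hz
      obtain ⟨t, ht, rfl⟩ := hz
      obtain ⟨t0, ht0⟩ := t
      induction t0 using Sym2.ind with
      | _ a b =>
        have ha : a ∈ vset T := hvT _ ht a (Sym2.mem_mk_left a b)
        have hb : b ∈ vset T := hvT _ ht b (Sym2.mem_mk_right a b)
        rw [Finset.mem_image]
        refine ⟨s(⟨a, ha⟩, ⟨b, hb⟩), ?_, by rw [Sym2.map_mk]⟩
        rw [hF, Finset.mem_filter]
        refine ⟨Finset.mem_univ _, ?_⟩
        rw [Finset.mem_image]
        exact ⟨⟨s(a, b), ht0⟩, ht, by rw [Sym2.map_mk]⟩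
    calc T.card + E'.card = ((T ∪ E').image Subtype.val).card := by rw [h2, h1]
      _ ≤ (F.image (Sym2.map Subtype.val)).card := Finset.card_le_card h3
      _ ≤ F.card := Finset.card_image_le
  have hAcard : A.card = F.card := by
    rw [hA]
    exact Finset.card_image_of_injective _ (Sym2.map.injective Sum.inl_injective)
  -- second part
  have hgdisj : ∀ q ∈ (Finset.univ : Finset (Σ N : Finset (Fin n), Fin (m N))),
      ∀ q' ∈ (Finset.univ : Finset (Σ N : Finset (Fin n), Fin (m N))), q ≠ q' →
        Disjoint (g q) (g q') := by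
    intro q _ q' _ hqq'
    rw [Finset.disjoint_left]
    intro z hz hz'
    rw [hg, Finset.mem_image] at hz hz'
    obtain ⟨x, -, rfl⟩ := hz
    obtain ⟨x', -, hx'⟩ := hz'
    have hmem : (Sum.inr q : PV T m) ∈ s((Sum.inl x' : PV T m), Sum.inr q') := by
      rw [hx']
      exact Sym2.mem_mk_right _ _
    rcases Sym2.mem_iff.1 hmem with h | h
    · exact Sum.inr_ne_inl h
    · exact hqq' (Sum.inr_injective h)
  have hgcard : ∀ q : (Σ N : Finset (Fin n), Fin (m N)), (g q).card = q.1.card := by
    intro q
    have hq0 : m q.1 ≠ 0 := by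
      intro h0
      have := q.2
      rw [h0] at this
      exact this.elim0
    have hsub : q.1 ⊆ vset T := hm q.1 hq0
    have hinj : Function.Injective
        (fun x : {x : Fin n // x ∈ vset T} => (s(Sum.inl x, Sum.inr q) : Sym2 (PV T m))) := by
      intro x y hxy
      have hxy' : (s(Sum.inl x, Sum.inr q) : Sym2 (PV T m)) = s(Sum.inl y, Sum.inr q) := hxy
      have hmem : (Sum.inl x : PV T m) ∈ s((Sum.inl y : PV T m), Sum.inr q) := by
        rw [← hxy']
        exact Sym2.mem_mk_left _ _
      rcases Sym2.mem_iff.1 hmem with h | h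
      · exact Sum.inl_injective h
      · exact absurd h Sum.inl_ne_inr
    rw [hg]
    show (((Finset.univ : Finset {x : Fin n // x ∈ vset T}).filter
        (fun x => x.1 ∈ q.1)).image (fun x => s(Sum.inl x, Sum.inr q))).card = q.1.card
    rw [Finset.card_image_of_injective _ hinj]
    have himg : ((Finset.univ : Finset {x : Fin n // x ∈ vset T}).filter
        (fun x => x.1 ∈ q.1)).image Subtype.val = q.1 := by
      ext y
      rw [Finset.mem_image]
      constructor
      · rintro ⟨x, hx, rfl⟩
        exact (Finset.mem_filter.1 hx).2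
      · intro hy
        exact ⟨⟨y, hsub hy⟩, Finset.mem_filter.2 ⟨Finset.mem_univ _, hy⟩, rfl⟩
    rw [← Finset.card_image_of_injective _ Subtype.val_injective, himg]
  have hBcard : B.card = ∑ N : Finset (Fin n), m N * N.card := by
    rw [hB, Finset.card_biUnion hgdisj]
    rw [Finset.sum_congr rfl (fun q _ => hgcard q)]
    rw [Fintype.sum_sigma]
    refine Finset.sum_congr rfl (fun N _ => ?_)
    show ∑ _y : Fin (m N), N.card = m N * N.card
    rw [Finset.sum_const, Finset.card_univ, Fintype.card_fin, smul_eq_mul]
  rw [hpat, Finset.card_union_of_disjoint hAB, hAcard, hBcard]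
  omega

end Crest.Agent.Helper65.S0076
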